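import Vale.Agent.P181.Six.R.D18_0
import Vale.Agent.P181.Six.R.B17

set_option maxRecDepth 100000
set_option maxHeartbeats 0

namespace Vale.Agent.P181.K

noncomputable def cR18_0_0 : L2 :=
 (Ls.cons Ls.nil
 (Ls.cons (Ls.cons (Ent.neg R18_29_1_0) (Ls.cons (Ent.neg R18_28_1_0) (Ls.cons (Ent.neg R18_27_1_0) (Ls.cons (Ent.neg R18_26_1_0) (Ls.cons (Ent.neg R18_25_1_0) (Ls.cons (Ent.neg R18_24_1_0) (Ls.cons (Ent.neg R18_23_1_0) (Ls.cons (Ent.neg R18_22_1_0) (Ls.cons (Ent.neg R18_21_1_0) (Ls.cons (Ent.neg R18_20_1_0) (Ls.cons (Ent.neg R18_19_1_0) (Ls.cons (Ent.neg R18_18_1_0) (Ls.cons (Ent.neg R18_17_1_0) (Ls.cons (Ent.neg R18_16_1_0) (Ls.cons (Ent.neg R18_15_1_0) (Ls.cons (Ent.neg R18_14_1_0) (Ls.cons (Ent.neg R18_13_1_0) (Ls.cons (Ent.neg R18_12_1_0) (Ls.cons (Ent.neg R18_11_1_0) (Ls.cons (Ent.neg R18_10_1_0)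 (Ls.cons (Ent.neg R18_9_1_0) (Ls.cons (Ent.neg R18_8_1_0) (Ls.cons (Ent.neg R18_7_1_0) (Ls.cons (Ent.neg R18_6_1_0) (Ls.cons (Ent.neg R18_5_1_0) (Ls.cons (Ent.neg R18_4_1_0) (Ls.cons (Ent.neg R18_3_1_0) (Ls.cons (Ent.pos R18_2_1_0) Ls.nil))))))))))))))))))))))))))))
 (Ls.cons Ls.nil
 (Ls.cons Ls.nil
 (Ls.cons Ls.nil
 (Ls.cons Ls.nil
 Ls.nil))))))

noncomputable def tbR18 : L3 := (Ls.cons cR18_0_0 Ls.nil)


end Vale.Agent.P181.K
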