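import Vale.Agent.P181.Six.R.H

set_option maxRecDepth 100000
set_option maxHeartbeats 0

namespace Vale.Agent.P181.K

noncomputable def R0_2_1_0 : Sv := un nR oR1_6
 (T.n (nat_lit 22491) (T.s (nat_lit 16954) (T.l (nat_lit 0x6000000000001)))
 (T.n (nat_lit 5586) (T.l (nat_lit 0x4000000000000000000000003))
 (T.l (nat_lit 0x6000000000001))))

noncomputable def R0_3_1_0 : Sv := up nR oR1_6
 (T.n (nat_lit 22442) (T.s (nat_lit 11368) (T.l (nat_lit 0x2000000000003)))
 (T.n (nat_lit 5586) (T.l (nat_lit 0x18000000000000000000000000000000000001))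
 (T.l (nat_lit 0x4000000000000000000000003))))

noncomputable def R0_4_1_0 : Sv := un nR oR1_6
 (T.n (nat_lit 16856) (T.s (nat_lit 11319) (T.l (nat_lit 0xc000000000000000000000001)))
 (T.n (nat_lit 11172) (T.l (nat_lit 0x8000000000000000000000000000000000003))
 (T.l (nat_lit 0x6000000000001))))

noncomputable def R0_5_1_0 : Sv := up nR oR1_5
 (T.n (nat_lit 16856) (T.s (nat_lit 11319) (T.l (nat_lit 0x2000000000003)))
 (T.n (nat_lit 5586) (T.l (nat_lit 0xc000000000000000000000001))
 (T.l (nat_lit 0x2000000000003))))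

noncomputable def R0_3_2_0 : Sv := un nR oR1_6
 (T.a (nat_lit 2) (nat_lit 16758) (T.n (nat_lit 11221) (T.s (nat_lit 5635) (T.l (nat_lit 0x7000000000000800000000000000000000000000000000000c)))
 (T.l (nat_lit 0x60000000000000000000000000000000000004))))

noncomputable def R0_4_2_0 : Sv := up nR oR1_6
 (T.a (nat_lit 2) (nat_lit 11172) (T.a (nat_lit 4) (nat_lit 22344) (T.s (nat_lit 5635) (T.l (nat_lit 0xd000000000000000000000004c000000000000000000000034)))))

noncomputable def R0_5_2_0 : Sv := un nR oR1_5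
 (T.n (nat_lit 16807) (T.s (nat_lit 5733) (T.l (nat_lit 0x6000000000001)))
 (T.n (nat_lit 5586) (T.l (nat_lit 0x8000000000000000000000000000000000003))
 (T.l (nat_lit 0xc000000000000000000000001))))

noncomputable def R0_4_3_0 : Sv := un nR oR1_6
 (T.a (nat_lit 2) (nat_lit 16758) (T.n (nat_lit 11221) (T.s (nat_lit 5684) (T.l (nat_lit 0x18000000000000000000000000000000000001)))
 (T.l (nat_lit 0x10000000000000000000000000000000000018000000000007))))

noncomputable def R0_5_3_0 : Sv := up nR oR1_5
 (T.n (nat_lit 11221) (T.s (nat_lit 5684) (T.l (nat_lit 0x4000000000000000000000003)))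
 (T.n (nat_lit 11172) (T.l (nat_lit 0x18000000000000000000000000000000000001))
 (T.l (nat_lit 0x2000000000003))))

noncomputable def R0_5_4_0 : Sv := un nR oR1_4
 (T.a (nat_lit 2) (nat_lit 5586) (T.a (nat_lit 4) (nat_lit 11172) (T.s (nat_lit 49) (T.l (nat_lit 0x70000000000188000000000070)))))


end Vale.Agent.P181.K
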