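import Vale.Agent.P181.Six.R.B10

set_option maxRecDepth 100000
set_option maxHeartbeats 0

namespace Vale.Agent.P181.K

theorem cR10_0_0_eq : Ls.beq (Ls.beq Ent.beq) (chunk JR (JR.lev 10 21) bsR10 tR 0 0 6) cR10_0_0 = true := by
  decide +kernel


end Vale.Agent.P181.K
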